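import Crest.Agent.R241.Basic

/-!
# Block C: sums of products are dense in `Lip (I × X)`.  Helper prefix `happ_`.
-/

open MeasureTheory Set Filter Topology
open Crest.GeometryTopology.MetricCurrent
open Crest.GeometryTopology.Submanifold (Euc unitBallVol unitSphereArea)
open scoped ENNReal NNReal InnerProductSpace unitInterval

noncomputable section

namespace Crest.Agent.R241

universe u

variable {X : Type u} [MetricSpace X] [CompactSpace X]

/-- finite sums of products of Lipschitz functions -/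
def SP (X : Type u) [MetricSpace X] : AddSubmonoid (I × X → ℝ) :=
  AddSubmonoid.closure {F | ∃ (α : ℝ → ℝ) (g : X → ℝ), Lip α ∧ Lip g ∧ F = fun p => α p.1 * g p.2}

theorem lip_prod {α : ℝ → ℝ} {g : X → ℝ} (hα : Lip α) (hg : Lip g) :
    Lip fun p : I × X => α p.1 * g p.2 := by
  obtain ⟨K, hK⟩ := hα
  obtain ⟨K', hK'⟩ := hg
  have h1 : Lip fun p : I × X => α p.1 :=
    ⟨_, hK.comp ((LipschitzWith.subtype_val _).comp LipschitzWith.prod_fst)⟩
  have h2 : Lip fun p : I × X => g p.2 := ⟨_, hK'.comp LipschitzWith.prod_snd⟩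
  exact h1.mul h2

theorem SP.lip {F : I × X → ℝ} (h : F ∈ SP X) : Lip F := by
  induction h using AddSubmonoid.closure_induction with
  | mem F hF =>
    obtain ⟨α, g, hα, hg, rfl⟩ := hF
    exact lip_prod hα hg
  | zero => exact Lip.const 0
  | add F G _ _ hF hG => exact hF.add hG

theorem happ_conv (n : ℕ) (u : ℝ) (h0 : 0 ≤ u) (h1 : u ≤ n) : ∃ (k : ℕ) (θ : ℝ), 0 ≤ θ ∧ θ ≤ 1 ∧ u = k + θ ∧
    ∀ G : ℕ → ℝ, G 0 + ∑ j ∈ Finset.range n, max 0 (min 1 (u - j)) * (G (j + 1) - G j) =
      (1 - θ) * G k + θ * G (k + 1) := by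
  induction n with
  | zero => exact ⟨0, 0, le_rfl, zero_le_one, by simpa using le_antisymm (by simpa using h1) h0, by simp⟩
  | succ n ih =>
    rcases le_total u n with h | h
    · obtain ⟨k, θ, a, b, c, d⟩ := ih h
      refine ⟨k, θ, a, b, c, fun G => ?_⟩
      rw [Finset.sum_range_succ, max_eq_left ((min_le_right _ _).trans (sub_nonpos.2 h)), zero_mul, add_zero, d]
    · push_cast at h1
      refine ⟨n, u - n, by linarith, by linarith, by ring, fun G => ?_⟩
      rw [Finset.sum_range_succ, min_eq_right (by linarith), max_eq_right (by linarith),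
        Finset.sum_congr rfl (g := fun j => G (j + 1) - G j) fun j hj => by
          have : (j : ℝ) + 1 ≤ n := by exact_mod_cast Finset.mem_range.1 hj
          rw [min_eq_left (by linarith), max_eq_right zero_le_one, one_mul], Finset.sum_range_sub]
      ring

theorem happ_sum {n : ℕ} {u : ℝ} (h0 : 0 ≤ u) (h1 : u ≤ n) : ∑ j ∈ Finset.range n, max 0 (min 1 (u - j)) = u := by
  obtain ⟨k, θ, -, -, c, d⟩ := happ_conv n u h0 h1
  have := d fun j => j
  simp only [Nat.cast_zero, zero_add, Nat.cast_succ, add_sub_cancel_left, mul_one] at this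
  linarith

theorem happ_le {θ a b a' b' M : ℝ} (h0 : 0 ≤ θ) (h1 : θ ≤ 1) (ha : |a - a'| ≤ M) (hb : |b - b'| ≤ M) :
    |(1 - θ) * a + θ * b - ((1 - θ) * a' + θ * b')| ≤ M := by
  rw [abs_le] at *
  constructor <;> nlinarith [mul_le_mul_of_nonneg_left ha.1 (sub_nonneg.2 h1), mul_le_mul_of_nonneg_left hb.1 h0,
    mul_le_mul_of_nonneg_left ha.2 (sub_nonneg.2 h1), mul_le_mul_of_nonneg_left hb.2 h0]

/-- piecewise linear interpolation in `s`: with `ρ u = max 0 (min 1 u)`, `G j = F (j / N, y)`,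
`F_N (s, y) = G 0 + ∑ j < N, ρ (N s - j) (G (j+1) - G j)`.
(1) `∑ j < N, ρ (u - j) = u` on `[0, N]` and `ρ` monotone give the Lipschitz bound in `s`;
(2) for any sequence `G` with `|G j| ≤ M` whenever `|j - u| ≤ 1`, `0 ≤ u ≤ n`:
`|G 0 + ∑ j < n, ρ (u - j) (G (j+1) - G j)| ≤ M` (induction on `n`, together with: the sum is `G n`
if `n ≤ u`); apply it to `G j = F (j/N, y) - F (j/N, y')` and to `G j = F (j/N, y) - F (s, y)`. -/
theorem exists_approx {F : I × X → ℝ} {L : ℝ≥0} (hF : LipschitzWith L F) :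
    ∃ G : ℕ → I × X → ℝ, (∀ N, G N ∈ SP X) ∧ (∀ N, LipschitzWith (2 * L) (G N)) ∧
      ∀ p, Tendsto (fun N => G N p) atTop (𝓝 (F p)) := by
  have hN : ∀ N : ℕ, (0 : ℝ) < (N + 1 : ℕ) := fun N => Nat.cast_pos.2 N.succ_pos
  set t : ℕ → ℕ → I := fun N j => projIcc 0 1 zero_le_one (j / (N + 1 : ℕ)) with ht
  have t1 : ∀ N j, dist (t N (j + 1)) (t N j) ≤ 1 / (N + 1 : ℕ) := fun N j => by
    refine ((LipschitzWith.projIcc zero_le_one).dist_le_mul _ _).trans_eq ?_
    rw [Real.dist_eq, ← sub_div, Nat.cast_succ j, add_sub_cancel_left, abs_of_pos (one_div_pos.2 (hN N)),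
      NNReal.coe_one, one_mul]
  have t2 : ∀ (N j : ℕ) (s : I), |(j : ℝ) - (N + 1 : ℕ) * s| ≤ 1 → dist (t N j) s ≤ 1 / (N + 1 : ℕ) := fun N j s h => by
    have h1 := (LipschitzWith.projIcc (zero_le_one' ℝ)).dist_le_mul (j / (N + 1 : ℕ)) s
    rw [projIcc_val, NNReal.coe_one, one_mul, Real.dist_eq, div_sub' (hN N).ne', abs_div, abs_of_pos (hN N)] at h1
    exact h1.trans (div_le_div_of_nonneg_right h (hN N).le)
  have hs : ∀ N (s : I), 0 ≤ ((N + 1 : ℕ) : ℝ) * s ∧ ((N + 1 : ℕ) : ℝ) * s ≤ (N + 1 : ℕ) := fun N s =>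
    ⟨mul_nonneg (hN N).le s.2.1, mul_le_of_le_one_right (hN N).le s.2.2⟩
  have f1 : ∀ (s s' : I) y, |F (s, y) - F (s', y)| ≤ L * dist s s' := fun s s' y => by
    simpa [Real.dist_eq] using hF.dist_le_mul (s, y) (s', y)
  have f2 : ∀ s : I, LipschitzWith L fun y => F (s, y) := fun s => by
    simpa [Function.comp_def] using hF.comp (LipschitzWith.prodMk_left s)
  refine ⟨fun N p => F (t N 0, p.2) + ∑ j ∈ Finset.range (N + 1),
    max 0 (min 1 ((N + 1 : ℕ) * (p.1 : ℝ) - j)) * (F (t N (j + 1), p.2) - F (t N j, p.2)), fun N => ?_,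
    fun N => ?_, fun p => ?_⟩
  · have h1 : (fun p : I × X => (1 : ℝ) * F (t N 0, p.2)) ∈ SP X :=
      AddSubmonoid.subset_closure ⟨fun _ => 1, _, Lip.const 1, ⟨_, f2 _⟩, rfl⟩
    have h2 := (SP X).add_mem h1 (sum_mem (t := Finset.range (N + 1)) (f := fun j (p : I × X) =>
      max 0 (min 1 ((N + 1 : ℕ) * (p.1 : ℝ) - j)) * (F (t N (j + 1), p.2) - F (t N j, p.2))) fun j _ => by
        obtain ⟨K, hK⟩ := (Lip.const_mul (N + 1 : ℕ) ⟨1, LipschitzWith.id⟩).sub (Lip.const (X := ℝ) j)
        exact AddSubmonoid.subset_closure ⟨_, _, ⟨K, (hK.const_min 1).const_max 0⟩,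
          Lip.sub ⟨_, f2 _⟩ ⟨_, f2 _⟩, rfl⟩)
    convert h2 using 1
    funext p
    simp only [Pi.add_apply, Finset.sum_apply, one_mul]
  · rw [two_mul]
    refine LipschitzWith.uncurry (f := fun (s : I) y => F (t N 0, y) + ∑ j ∈ Finset.range (N + 1),
      max 0 (min 1 ((N + 1 : ℕ) * (s : ℝ) - j)) * (F (t N (j + 1), y) - F (t N j, y)))
      (fun y => LipschitzWith.of_dist_le_mul fun s s' => ?_) fun s => LipschitzWith.of_dist_le_mul fun y y' => ?_
    · wlog h : s' ≤ s generalizing s s'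
      · rw [dist_comm, dist_comm s]
        exact this s' s (le_of_not_ge h)
      have h' : (s' : ℝ) ≤ s := h
      rw [Real.dist_eq, add_sub_add_left_eq_sub, ← Finset.sum_sub_distrib, Subtype.dist_eq, Real.dist_eq,
        abs_of_nonneg (sub_nonneg.2 h')]
      refine (Finset.abs_sum_le_sum_abs _ _).trans ((Finset.sum_le_sum (g := fun j : ℕ =>
        (max 0 (min 1 ((N + 1 : ℕ) * (s : ℝ) - j)) - max 0 (min 1 ((N + 1 : ℕ) * (s' : ℝ) - j))) *
          (L * (1 / (N + 1 : ℕ)))) fun j _ => ?_).trans_eq ?_)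
      · have h0 : 0 ≤ max 0 (min 1 ((N + 1 : ℕ) * (s : ℝ) - j)) - max 0 (min 1 ((N + 1 : ℕ) * (s' : ℝ) - j)) :=
          sub_nonneg.2 (by gcongr)
        rw [← sub_mul, abs_mul, abs_of_nonneg h0]
        exact mul_le_mul_of_nonneg_left ((f1 _ _ y).trans (mul_le_mul_of_nonneg_left (t1 N j) L.2)) h0
      · rw [← Finset.sum_mul, Finset.sum_sub_distrib, happ_sum (hs N s).1 (hs N s).2, happ_sum (hs N s').1 (hs N s').2]
        field_simp
    · obtain ⟨k, θ, h0, h1, -, e⟩ := happ_conv (N + 1) _ (hs N s).1 (hs N s).2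
      rw [Real.dist_eq, e fun j => F (t N j, y), e fun j => F (t N j, y')]
      exact happ_le h0 h1 ((f2 _).dist_le_mul y y') ((f2 _).dist_le_mul y y')
  · rw [tendsto_iff_dist_tendsto_zero]
    refine squeeze_zero (g := fun N : ℕ => L * (1 / ((N : ℝ) + 1))) (fun _ => dist_nonneg) (fun N => ?_)
      (by simpa using (tendsto_one_div_add_atTop_nhds_zero_nat (𝕜 := ℝ)).const_mul (L : ℝ))
    obtain ⟨k, θ, h0, h1, e1, e⟩ := happ_conv (N + 1) _ (hs N p.1).1 (hs N p.1).2
    beta_reduce
    rw [Real.dist_eq, e fun j => F (t N j, p.2), show F p = (1 - θ) * F (p.1, p.2) + θ * F (p.1, p.2) by ring,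
      ← Nat.cast_succ]
    refine happ_le h0 h1 ((f1 _ _ _).trans (mul_le_mul_of_nonneg_left (t2 N _ _ ?_) L.2))
      ((f1 _ _ _).trans (mul_le_mul_of_nonneg_left (t2 N _ _ ?_) L.2)) <;> rw [e1, abs_le] <;> push_cast <;>
      constructor <;> linarith

/-- a multi-additive, weakly continuous functional vanishing on products vanishes -/
theorem lip_induction {m : ℕ} (D : (Fin m → I × X → ℝ) → ℝ)
    (hadd : ∀ (F : Fin m → I × X → ℝ) (a : Fin m) (g g' : I × X → ℝ), (∀ b, Lip (F b)) → Lip g →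
      Lip g' → D (Function.update F a fun p => g p + g' p)
        = D (Function.update F a g) + D (Function.update F a g'))
    (hprod : ∀ (α : Fin m → ℝ → ℝ) (g : Fin m → X → ℝ), (∀ a, Lip (α a)) → (∀ a, Lip (g a)) →
      D (fun a p => α a p.1 * g a p.2) = 0)
    (hlim : ∀ (F : ℕ → Fin m → I × X → ℝ) (G : Fin m → I × X → ℝ) (L : ℝ≥0),
      (∀ N a, LipschitzWith L (F N a)) → (∀ a p, Tendsto (fun N => F N a p) atTop (𝓝 (G a p))) →
      Tendsto (fun N => D (F N)) atTop (𝓝 (D G)))
    {F : Fin m → I × X → ℝ} (hF : ∀ a, Lip (F a)) : D F = 0 := by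
  classical
  have key : ∀ (s : Finset (Fin m)) (F : Fin m → I × X → ℝ), (∀ a, F a ∈ SP X) →
      (∀ a, a ∉ s → ∃ (α : ℝ → ℝ) (g : X → ℝ), Lip α ∧ Lip g ∧ F a = fun p => α p.1 * g p.2) →
      D F = 0 := by
    intro s
    induction s using Finset.induction_on with
    | empty =>
      intro F _ h
      choose α g hα hg e using fun a => h a (Finset.notMem_empty a)
      rw [show F = fun a p => α a p.1 * g a p.2 from funext e]
      exact hprod α g hα hg
    | insert a s _ ih =>
      intro F hS h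
      have gen : ∀ G : I × X → ℝ,
          (∃ (α : ℝ → ℝ) (g : X → ℝ), Lip α ∧ Lip g ∧ G = fun p => α p.1 * g p.2) →
          D (Function.update F a G) = 0 := fun G hG => by
        refine ih _ (fun b => ?_) fun b hb => ?_
        · by_cases hb : b = a
          · rw [hb, Function.update_self]; exact AddSubmonoid.subset_closure hG
          · rw [Function.update_of_ne hb]; exact hS b
        · by_cases hb' : b = a
          · rw [hb', Function.update_self]; exact hG
          · rw [Function.update_of_ne hb']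
            exact h b fun hm => (Finset.mem_insert.1 hm).elim hb' hb
      have all : ∀ G ∈ SP X, D (Function.update F a G) = 0 := fun G hG => by
        induction hG using AddSubmonoid.closure_induction with
        | mem G hG => exact gen G hG
        | zero =>
          exact gen _ ⟨fun _ => 0, fun _ => 0, Lip.const 0, Lip.const 0, funext fun _ => (mul_zero _).symm⟩
        | add G G' hG hG' e e' =>
          have := hadd F a G G' (fun b => SP.lip (hS b)) (SP.lip hG) (SP.lip hG')
          rw [e, e', add_zero] at this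
          exact this
      have := all _ (hS a)
      rwa [Function.update_eq_self] at this
  choose K hK using hF
  choose G h1 h2 h3 using fun a => exists_approx
    ((hK a).weaken (Finset.le_sup (f := K) (Finset.mem_univ a)))
  have := hlim (fun N a => G a N) F _ (fun N a => h2 a N) h3
  simp only [fun N => key Finset.univ (fun a => G a N) (fun a => h1 a N)
    fun a ha => absurd (Finset.mem_univ a) ha] at this
  exact tendsto_nhds_unique this tendsto_const_nhds

end Crest.Agent.R241
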