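import Crest.Agent.R241.HypA

/-!
# Block C: radial maps are Lipschitz; their infinitesimal metric.  Helper prefix `hhin_`.
-/

open MeasureTheory Set Filter Topology
open Crest.GeometryTopology.MetricCurrent
open Crest.GeometryTopology.Submanifold (Euc unitBallVol unitSphereArea)
open scoped ENNReal NNReal InnerProductSpace

noncomputable section

namespace Crest.Agent.R241

universe u

variable {X : Type u} [MetricSpace X] {σ : ℝ} {x : X} {g : X → ℝ → X}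

/-- `hinge`, `md_add`, `le_of_md_le` -/
theorem dist_radial_le (hσ : 0 ≤ σ) (hg : ∀ y, IsPG σ (g y) x y) {y y' : X} {a a' : ℝ}
    (ha : a ∈ Icc 0 (dist x y)) (ha' : a' ∈ Icc 0 (dist x y')) :
    dist (g y a) (g y' a') ≤ |a - a'| + dist y y' := by
  have h0 : ∀ {y y' : X} {a a' : ℝ}, a ∈ Icc 0 (dist x y) → a' ∈ Icc 0 (dist x y') →
      dist x y = 0 → dist (g y a) (g y' a') = |a - a'| := fun {y y' a a'} ha ha' h => by
    have : a = 0 := le_antisymm (h ▸ ha.2) ha.1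
    rw [this, (hg y).zero, (hg y').dist_left ha', zero_sub, abs_neg, abs_of_nonneg ha'.1]
  rcases (dist_nonneg (x := x) (y := y)).eq_or_lt with h | h
  · rw [h0 ha ha' h.symm]; exact le_add_of_nonneg_right dist_nonneg
  rcases (dist_nonneg (x := x) (y := y')).eq_or_lt with h' | h'
  · rw [dist_comm, h0 ha' ha h'.symm, abs_sub_comm]; exact le_add_of_nonneg_right dist_nonneg
  have h1 := (hg y).hinge hσ (hg y') ha ha'
  have h2 := mul_pos (sn_pos hσ h) (sn_pos hσ h')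
  have h3 : sn σ a * sn σ a' ≤ sn σ (dist x y) * sn σ (dist x y') :=
    mul_le_mul ((strictMono_sn hσ).monotone ha.2) ((strictMono_sn hσ).monotone ha'.2)
      (sn_nonneg hσ ha'.1) (sn_nonneg hσ dist_nonneg)
  have h4 := mul_nonneg (sn_nonneg hσ ha.1) (sn_nonneg hσ ha'.1)
  have h5 := md_nonneg hσ (dist x y - dist x y')
  have h6 := kap_nonneg hσ y y'
  have h7 : kap σ (g y a) (g y' a') ≤ md σ (a - a') + kap σ y y' := by
    refine le_of_mul_le_mul_left (h1.trans ?_) h2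
    nlinarith
  refine (le_abs_self _).trans (le_of_md_le hσ (by positivity) (h7.trans ?_))
  rw [md_add hσ, md_abs]
  have h8 := mul_nonneg (mul_nonneg hσ (md_nonneg hσ (a - a'))) (md_nonneg hσ (dist y y'))
  have h9 := mul_nonneg (sn_nonneg hσ (abs_nonneg (a - a'))) (sn_nonneg hσ (dist_nonneg (x := y) (y := y')))
  unfold kap
  linarith

theorem lipschitz_radial (hσ : 0 ≤ σ) (hg : ∀ y, IsPG σ (g y) x y) {Y : Type u} [MetricSpace Y]
    {q : Y → X} (hq : LipschitzWith 1 q) {a : Y → ℝ} (ha : Lip a)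
    (ha0 : ∀ p, a p ∈ Icc 0 (dist x (q p))) : ∃ K : ℝ≥0, LipschitzWith K fun p => g (q p) (a p) := by
  obtain ⟨K, hK⟩ := ha
  refine ⟨K + 1, LipschitzWith.of_dist_le_mul fun p p' => ?_⟩
  have h1 := hK.dist_le_mul p p'
  have h2 := hq.dist_le_mul p p'
  rw [Real.dist_eq] at h1
  refine (dist_radial_le hσ hg (ha0 p) (ha0 p')).trans ?_
  push_cast at h2 ⊢
  linarith

open Asymptotics in
theorem hhin_sq {m : ℕ} {E : Set (Euc m)} {A : Euc m → ℝ} {A' : Euc m →L[ℝ] ℝ} {z : Euc m}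
    (h : HasFDerivWithinAt A A' E z) : (fun z' => (A z' - A z) ^ 2 - A' (z' - z) ^ 2)
      =o[𝓝[E] z] fun z' => ‖z' - z‖ ^ 2 := by
  have h1 : (fun z' => A z' - A z - A' (z' - z)) =o[𝓝[E] z] fun z' => ‖z' - z‖ :=
    h.isLittleO.norm_right
  have h2 : (fun z' => A' (z' - z)) =O[𝓝[E] z] fun z' => ‖z' - z‖ :=
    (A'.isBigO_sub _ _).norm_right
  have h3 := h1.mul_isBigO (h1.isBigO.add (h2.add h2))
  refine h3.congr (fun z' => by ring) fun z' => by ring

open Asymptotics in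
theorem hhin_md (hσ : 0 ≤ σ) {α : Type*} {l : Filter α} {u n : α → ℝ} (hu : u =O[l] n)
    (hn : Tendsto n l (𝓝 0)) : (fun a => 2 * md σ (u a) - u a ^ 2) =o[l] fun a => n a ^ 2 := by
  have h1 : Tendsto (fun a => σ * md σ (u a)) l (𝓝 0) := by
    simpa using (((continuous_md σ).tendsto 0).comp (hu.trans_tendsto hn)).const_mul σ
  have h2 := (hu.pow 2).mul_isLittleO ((isLittleO_one_iff ℝ).2 h1)
  refine (IsBigO.of_bound' (.of_forall fun a => ?_)).trans_isLittleO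
    (h2.congr' EventuallyEq.rfl (.of_forall fun a => mul_one _))
  have h3 := sq_le_md hσ (u a)
  have h4 := md_le hσ (u a)
  rw [Real.norm_of_nonneg (by linarith), Real.norm_of_nonneg
    (mul_nonneg (sq_nonneg _) (mul_nonneg hσ (md_nonneg hσ _)))]
  linarith

/-- `hinge`, `sq_le_md`, `md_le`; all error terms are `o(‖z' - z‖²)`.  If `ψ z = x` the distance is
`A z' - A z`. -/
theorem hinge_local (hσ : 0 ≤ σ) (hg : ∀ y, IsPG σ (g y) x y) {m k : ℕ} {E : Set (Euc m)}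
    {ψ : Euc m → X} {A : Euc m → ℝ} (hA : ∀ z ∈ E, A z ∈ Icc 0 (dist x (ψ z)))
    {P : Euc m →L[ℝ] Euc k} {z : Euc m} (hz : z ∈ E)
    (hψ : ∀ z' ∈ E, dist (ψ z') (ψ z) ≤ ‖P (z' - z)‖) {A' R' : Euc m →L[ℝ] ℝ}
    (hA' : HasFDerivWithinAt A A' E z) (hR' : HasFDerivWithinAt (fun w => dist x (ψ w)) R' E z) :
    ∀ ε > 0, ∀ᶠ z' in 𝓝[E] z, dist (g (ψ z') (A z')) (g (ψ z) (A z)) ^ 2
      ≤ A' (z' - z) ^ 2 + (sn σ (A z) / sn σ (dist x (ψ z))) ^ 2
        * (‖P (z' - z)‖ ^ 2 - R' (z' - z) ^ 2) + ε * ‖z' - z‖ ^ 2 := by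
  open Asymptotics in
  suffices H : ∃ e : Euc m → ℝ, e =o[𝓝[E] z] (fun z' => ‖z' - z‖ ^ 2) ∧ ∀ᶠ z' in 𝓝[E] z,
      dist (g (ψ z') (A z')) (g (ψ z) (A z)) ^ 2 ≤ A' (z' - z) ^ 2
        + (sn σ (A z) / sn σ (dist x (ψ z))) ^ 2 * (‖P (z' - z)‖ ^ 2 - R' (z' - z) ^ 2) + e z' by
    obtain ⟨e, h1, h2⟩ := H
    intro ε hε
    filter_upwards [h1.bound hε, h2] with z' a1 a2
    rw [Real.norm_of_nonneg (sq_nonneg ‖z' - z‖)] at a1
    linarith [le_abs_self (e z'), Real.norm_eq_abs (e z')]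
  rcases (dist_nonneg (x := x) (y := ψ z)).eq_or_lt with h | h
  · refine ⟨_, hhin_sq hA', ?_⟩
    filter_upwards [self_mem_nhdsWithin] with z' hz'
    have h0 : A z = 0 := le_antisymm (h ▸ (hA z hz).2) (hA z hz).1
    rw [h0, (hg _).zero, dist_comm, (hg _).dist_left (hA z' hz'), sn_zero]
    simp
  set l : Euc m → ℝ := fun w => sn σ (A w) / sn σ (dist x (ψ w)) with hl
  have hn : Tendsto (fun z' => ‖z' - z‖) (𝓝[E] z) (𝓝 0) :=
    tendsto_nhdsWithin_of_tendsto_nhds (tendsto_norm_sub_self z)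
  have hl1 : Tendsto l (𝓝[E] z) (𝓝 (l z)) :=
    (((continuous_sn σ).tendsto _).comp hA'.continuousWithinAt).div
      (((continuous_sn σ).tendsto _).comp hR'.continuousWithinAt) (sn_pos hσ h).ne'
  have hl2 : (fun z' => l z' * l z) =O[𝓝[E] z] fun _ => (1 : ℝ) := (hl1.mul_const _).isBigO_one ℝ
  have hl3 : (fun z' => l z' * l z - l z ^ 2) =o[𝓝[E] z] fun _ => (1 : ℝ) :=
    (isLittleO_one_iff ℝ).2 (by
      have := (hl1.mul_const (l z)).sub_const (l z ^ 2)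
      rwa [← sq, sub_self] at this)
  have hP : (fun z' => ‖P (z' - z)‖) =O[𝓝[E] z] fun z' => ‖z' - z‖ := (P.isBigO_sub _ _).norm_norm
  have hR : (fun z' => R' (z' - z)) =O[𝓝[E] z] fun z' => ‖z' - z‖ := (R'.isBigO_sub _ _).norm_right
  have e1 := hhin_md hσ hA'.isBigO_sub.norm_right hn
  have e2 := hhin_sq hA'
  have e3 := (hl3.mul_isBigO ((hP.pow 2).sub (hR.pow 2))).congr' EventuallyEq.rfl
    (.of_forall fun _ => one_mul _)
  have e4 := (hl2.mul_isLittleO ((hhin_md hσ hP hn).sub (hhin_sq hR'))).congr' EventuallyEq.rfl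
    (.of_forall fun _ => one_mul _)
  refine ⟨_, (e1.add e2).add (e3.add e4), ?_⟩
  filter_upwards [self_mem_nhdsWithin, hR'.continuousWithinAt.eventually (lt_mem_nhds h)]
    with z' hz' h'
  have h1 := (hg _).hinge hσ (hg _) (hA z' hz') (hA z hz)
  have h2 := sn_pos hσ h
  have h3 := sn_pos hσ h'
  have h4 : 0 ≤ l z' * l z := mul_nonneg (div_nonneg (sn_nonneg hσ (hA z' hz').1) h3.le)
    (div_nonneg (sn_nonneg hσ (hA z hz).1) h2.le)
  have h5 : kap σ (g (ψ z') (A z')) (g (ψ z) (A z)) ≤ md σ (A z' - A z)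
      + l z' * l z * (kap σ (ψ z') (ψ z) - md σ (dist x (ψ z') - dist x (ψ z))) := by
    refine le_of_mul_le_mul_left (h1.trans_eq ?_) (mul_pos h3 h2)
    simp only [hl]
    field_simp
  have h6 : kap σ (ψ z') (ψ z) ≤ md σ ‖P (z' - z)‖ :=
    md_le_md hσ ((abs_of_nonneg dist_nonneg).trans_le (hψ z' hz'))
  have h7 := sq_le_md hσ (dist x (ψ z') - dist x (ψ z))
  have h8 := sq_le_md hσ (dist (g (ψ z') (A z')) (g (ψ z) (A z)))
  have h9 := mul_le_mul_of_nonneg_left (sub_le_sub h6 h7) h4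
  change _ ≤ _ + l z ^ 2 * _ + _
  unfold kap at h5 h9
  nlinarith

end Crest.Agent.R241
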